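import Mathlib
import Vale.Agent.Lib.P196.Defs
import Vale.Agent.Lib.P196.DefsApprox
import Vale.Agent.Lib.P196.Main

namespace Vale.Agent.Results.P196.ApproximableNoFpSimple

open Vale.Agent.Lib.P196

/-- No group in the class `Approximable` (generated from the elementary amenable groups by
extensions, directed unions and local embeddability) contains an infinite finitely presented
simple subgroup. -/
theorem result (G : Type) [Group G] (h : Approximable G) (S : Type) [Group S] [IsSimpleGroup S]
    [Group.IsFinitelyPresented S] (j : S →* G) (hj : Function.Injective j) : Finite S :=
  approximable_no_subgroup h S j hj

end Vale.Agent.Results.P196.ApproximableNoFpSimple
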