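import Mathlib
import Vale.Agent.Lib.P196.Defs
import Vale.Agent.Lib.P196.Main

namespace Vale.Agent.Results.P196.LocallyElementaryFinite

open Vale.Agent.Lib.P196

/-- A finitely presented simple group that is locally embeddable into the class of elementary
amenable groups is finite. -/
theorem result (G : Type) [Group G] [IsSimpleGroup G] [Group.IsFinitelyPresented G]
    (h : LocallyEmbeddable @ElementaryAmenable G) : Finite G :=
  fp_simple_le_ea_finite G h

end Vale.Agent.Results.P196.LocallyElementaryFinite
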